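import Vale.Agent.P045R.Final

/-!
# P045: Ryser's conjecture fails, coordinate form

An `r`-partite `r`-uniform hypergraph on the vertex set `Fin r × ℕ` (parts `{i} × ℕ`) is given by a finite
set `H` of functions `f : Fin r → ℕ`; the edge of `f` is the set of all `(i, f i)`.
-/

/-- Coordinate form of the disproof of Ryser's conjecture, without any auxiliary definition. -/
theorem Vale.Agent.Results.P045.CoordinateForm.result :
    (∃ q₀ : ℕ, ∀ q ≥ q₀, q.Prime → ∃ H : Finset (Fin (q + 1) → ℕ), H.Nonempty ∧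
      (∀ f ∈ H, ∀ g ∈ H, ∃ i, f i = g i) ∧
      ∀ C : Finset (Fin (q + 1) × ℕ), (∀ f ∈ H, ∃ i, (i, f i) ∈ C) → q + 1 ≤ C.card) ∧
    ¬ ∀ r : ℕ, 2 ≤ r → ∀ H : Finset (Fin r → ℕ),
      ∃ (C : Finset (Fin r × ℕ)) (M : Finset (Fin r → ℕ)),
        (∀ f ∈ H, ∃ i, (i, f i) ∈ C) ∧ M ⊆ H ∧
        (∀ f ∈ M, ∀ g ∈ M, f ≠ g → ∀ i, f i ≠ g i) ∧ C.card ≤ (r - 1) * M.card := by
  classical
  have key : ∃ q₀ : ℕ, ∀ q ≥ q₀, q.Prime → ∃ H : Finset (Fin (q + 1) → ℕ), H.Nonempty ∧
      (∀ f ∈ H, ∀ g ∈ H, ∃ i, f i = g i) ∧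
      ∀ C : Finset (Fin (q + 1) × ℕ), (∀ f ∈ H, ∃ i, (i, f i) ∈ C) → q + 1 ≤ C.card := by
    obtain ⟨q₀, h⟩ := P045.exists_hyper
    refine ⟨q₀, fun q hq hp => ?_⟩
    obtain ⟨V, hV, part, H, h1, h2, h3⟩ := h q hq hp
    -- an injective numbering of the vertices
    let ix : V → ℕ := fun v => (Fintype.equivFin V v : ℕ)
    have ixinj : Function.Injective ix := fun a b hab =>
      (Fintype.equivFin V).injective (Fin.ext hab)
    -- choice of the vertex of the edge `e` in the part `i`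
    have hch : ∀ e : Finset V, ∃ w : Fin (q + 1) → ℕ, e ∈ H →
        ∀ i, ∃ v ∈ e, part v = i ∧ ix v = w i := by
      intro e
      by_cases he : e ∈ H
      · choose v hv using fun i => (h1 e he i).exists
        exact ⟨fun i => ix (v i), fun _ i => ⟨v i, (hv i).1, (hv i).2, rfl⟩⟩
      · exact ⟨fun _ => 0, fun h' => absurd h' he⟩
    choose w hw using hch
    have uniq : ∀ e ∈ H, ∀ v ∈ e, w e (part v) = ix v := by
      intro e he v hv
      obtain ⟨u, hu, hpu, hiu⟩ := hw e he (part v)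
      have : u = v := (h1 e he (part v)).unique ⟨hu, hpu⟩ ⟨hv, rfl⟩
      rw [← hiu, this]
    refine ⟨H.image w, ?_, ?_, ?_⟩
    · exact h2.1.image w
    · intro f hf g hg
      obtain ⟨e, he, rfl⟩ := Finset.mem_image.1 hf
      obtain ⟨e', he', rfl⟩ := Finset.mem_image.1 hg
      obtain ⟨v, hv, hv'⟩ := h2.2 e he e' he'
      exact ⟨part v, by rw [uniq e he v hv, uniq e' he' v hv']⟩
    · intro C hC
      let X : Finset V := Finset.univ.filter fun v => (part v, ix v) ∈ C
      have hX : P045.IsCover H X := by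
        intro e he
        obtain ⟨i, hi⟩ := hC (w e) (Finset.mem_image_of_mem w he)
        obtain ⟨v, hv, hpv, hiv⟩ := hw e he i
        refine ⟨v, hv, ?_⟩
        simp only [X, Finset.mem_filter, Finset.mem_univ, true_and]
        rw [hpv, hiv]
        exact hi
      have hle : P045.tau H ≤ X.card := Nat.sInf_le ⟨X, hX, rfl⟩
      have hXC : X.card ≤ C.card := by
        refine Finset.card_le_card_of_injOn (fun v => (part v, ix v)) ?_ ?_
        · intro v hv
          have hv' : v ∈ X := hv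
          simp only [X, Finset.mem_filter, Finset.mem_univ, true_and] at hv'
          exact hv'
        · intro a _ b _ hab
          exact ixinj (Prod.ext_iff.1 hab).2
      omega
  refine ⟨key, fun hR => ?_⟩
  obtain ⟨q₀, h⟩ := key
  obtain ⟨p, hp, hpp⟩ := Nat.exists_infinite_primes (max q₀ 2)
  obtain ⟨H, -, hint, hcov⟩ := h p (le_trans (le_max_left _ _) hp) hpp
  obtain ⟨C, M, hC, hMH, hM, hle⟩ := hR (p + 1) (by have := hpp.two_le; omega) H
  have hM1 : M.card ≤ 1 := by
    rw [Finset.card_le_one]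
    intro f hf g hg
    by_contra hne
    obtain ⟨i, hi⟩ := hint f (hMH hf) g (hMH hg)
    exact hM f hf g hg hne i hi
  have h1 := hcov C hC
  have h2 : (p + 1 - 1) * M.card ≤ p * 1 := Nat.mul_le_mul (by omega) hM1
  omega
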