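import Vale.Agent.P045R.Final
import Vale.Agent.P045R.NuAll

/-!
# P045: Ryser's conjecture is false

For every sufficiently large prime `q` there is an intersecting `(q+1)`-partite `(q+1)`-uniform
hypergraph whose covering number is `q+1`.
-/

open P045 in
/-- For every large prime `q` there is an intersecting `(q+1)`-partite `(q+1)`-uniform hypergraph with
covering number `q+1` (and matching number `1`), and for every `n` one with matching number `n` and
covering number `(q+1) n`; in particular Ryser's conjecture is false. -/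
theorem Vale.Agent.Results.P045.RyserFalse.result :
    (∃ q₀ : ℕ, ∀ q ≥ q₀, q.Prime →
      (∃ (V : Type) (_ : Fintype V) (part : V → Fin (q + 1)) (H : Finset (Finset V)),
        IsPartiteUniform (q + 1) part H ∧ IsIntersecting H ∧ nu H = 1 ∧ tau H = q + 1) ∧
      ∀ n : ℕ, ∃ (V : Type) (_ : Fintype V) (part : V → Fin (q + 1)) (H : Finset (Finset V)),
        IsPartiteUniform (q + 1) part H ∧ nu H = n ∧ tau H = (q + 1) * n) ∧
    ¬ RyserConjecture := by
  refine ⟨?_, not_ryser⟩
  obtain ⟨q₀, h⟩ := exists_hyper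
  refine ⟨q₀, fun q hq hp => ?_⟩
  obtain ⟨V, hV, part, H, h1, h2, h3⟩ := h q hq hp
  refine ⟨⟨V, hV, part, H, h1, h2, nu_eq_one_proved h2, h3⟩, fun n => ?_⟩
  obtain ⟨V', hV', part', H', h1', h2', h3'⟩ := copies part H h1 (Nat.succ_le_succ (Nat.zero_le q)) n
  rw [nu_eq_one_proved h2, Nat.mul_one] at h2'
  rw [h3, Nat.mul_comm] at h3'
  exact ⟨V', hV', part', H', h1', h2', h3'⟩
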